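import Vale.Agent.P021.H45.Fin

/-!
# P021: an explicit irrationality measure of `π`, valid for every denominator

For all integers `p` and `q` with `q ≥ 2` the inequality `|π - p / q| > q ^ (-13 / 2)` holds.
No denominator is excluded and no constant is left unspecified.
-/

namespace Vale.Agent.Results.P021.ExplicitMeasure

/-- For all integers `p` and `q ≥ 2`: `1 / q ^ (13 / 2) < |π - p / q|`. -/
theorem result : ∀ p q : ℤ, 2 ≤ q →
    1 / (q : ℝ) ^ (13 / 2 : ℝ) < |Real.pi - (p : ℝ) / (q : ℝ)| :=
  fun p q hq => Vale.Agent.P021.H45.fin2 p q hq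

end Vale.Agent.Results.P021.ExplicitMeasure
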